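import Vale.Agent.P323.P11.Iface

/-!
# Section 11: black boxes and statements of the parts
-/

namespace Vale.Agent.P323.P11

open CategoryTheory Vale.Agent.P323.Z NameTheory TwBase

set_option linter.unusedSectionVars false

noncomputable section

variable (D : Type 1) [Category.{1} D] [Tw D] [NameTheory (CObj D)]

/-- coloured amalgams (K-COL) -/
def AmalgStmt : Prop := ∀ {X Y Z : CObj D} (u : X ⟶ Y) (v : X ⟶ Z),
  Col.Compat (Col.pull u.u Y.p) (Col.pull v.u Z.p) →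
    ∃ (W : CObj D) (j₁ : Y ⟶ W) (j₂ : Z ⟶ W), u ≫ j₁ = v ≫ j₂ ∧ IsPB u.u v.u j₁.u j₂.u ∧
      (Col.Le (Col.pull u.u Y.p) (Col.pull v.u Z.p) → Cons j₂) ∧
      (Col.Le (Col.pull v.u Z.p) (Col.pull u.u Y.p) → Cons j₁)

/-- Step 1 for the stable equivalence `e₁ y = e₂ y` (K-9A) -/
def Step1Stmt : Prop := ∀ {B : CObj D} (y : N B) {X : CObj D} (u v : B ⟶ X),
  feq (mv u y) (mv v y) → ∀ {d : D} (s t : d ⟶ B.x), IsPB s t u.u v.u →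
    ∀ {W : CObj D} (e₁ e₂ : B ⟶ W), Col.Le (Col.pull u.u X.p) (Col.pull e₁.u W.p) →
      Col.Le (Col.pull u.u X.p) (Col.pull e₂.u W.p) → s ≫ e₁.u = s ≫ e₂.u →
        feq (mv e₁ y) (mv e₂ y)

/-- Theorem 9 for the stable equivalence `e₁ γ = e₂ γ` and `e₁ y = e₂ y` (K-9B).
A morphism `e` out of `B` is a morphism out of `(B.x, r)` iff `Le r (pull e.u W.p)`. -/
def Thm9Stmt : Prop := ∀ (B : CObj D) (y : N B) (c : D) (γ : c ⟶ B.x),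
  ∃ (i : Ordinal.{0}) (r : Col B.x) (G : PG D i B.x), Col.Le B.p r ∧ Sm r ∧ Mem i γ ∧
    (∀ {d : D} {s t : d ⟶ B.x}, G.rel s t → ∃ v : c ⟶ d, v ≫ s = γ ∧ v ≫ t = γ) ∧
    ∀ {W : CObj D} (e₁ e₂ : B ⟶ W), Col.Le r (Col.pull e₁.u W.p) →
      Col.Le r (Col.pull e₂.u W.p) →
      ((γ ≫ e₁.u = γ ≫ e₂.u ∧ feq (mv e₁ y) (mv e₂ y)) ↔
        ∃ (d : D) (s t : d ⟶ B.x), G.rel s t ∧ s ≫ e₁.u = t ≫ e₂.u)

/-- Joint separation (K-JS): different stages -/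
def JSStmt : Prop := ∀ {n : ℕ} {c : D} (α : (a n : D) ⟶ c) {j j' : Ordinal.{0}}
  (hα : Mem j α) (hα' : Mem j' α) {b b' : D} (E : PG D j b) (E' : PG D j' b')
  (γ : (a (n + 1) : D) ⟶ b) (γ' : (a (n + 1) : D) ⟶ b') (hγ : Mem j γ) (hγ' : Mem j' γ')
  (inv : ∀ {d : D} {s t : d ⟶ b}, E.rel s t → ∃ v : (a (n + 1) : D) ⟶ d, v ≫ s = γ ∧ v ≫ t = γ)
  (inv' : ∀ {d : D} {s t : d ⟶ b'}, E'.rel s t →
    ∃ v : (a (n + 1) : D) ⟶ d, v ≫ s = γ' ∧ v ≫ t = γ')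
  {w : D} (e : b ⟶ w) (e' : b' ⟶ w), γ ≫ e = γ' ≫ e' →
  ∀ {f : D} (s t : f ⟶ c),
    s ≫ Tw.gen (⟨n, c, α, b, E, γ, hα, hγ, inv⟩ : Task D j) ≫ e =
      t ≫ Tw.gen (⟨n, c, α, b', E', γ', hα', hγ', inv'⟩ : Task D j') ≫ e' →
    ¬ Thru s α → ¬ Thru t α → j = j'

/-- Joint separation (K-JS): the same task -/
def JSStmt' : Prop := ∀ {j : Ordinal.{0}} (τ : Task D j) {w : D} (e e' : τ.b ⟶ w),
  τ.γ ≫ e = τ.γ ≫ e' →
  ∀ {f : D} (s t : f ⟶ τ.c), s ≫ Tw.gen τ ≫ e = t ≫ Tw.gen τ ≫ e' →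
    ¬ Thru s τ.α → ¬ Thru t τ.α →
      s = t ∧ ∃ (d : D) (x y : d ⟶ τ.b), τ.E.rel x y ∧ x ≫ e = y ≫ e'

/-- Cardinality (CARD) -/
def CardStmt : Prop := ∀ (T : Type 1) (X Z : CObj D)
  (f : T → Σ b : CObj D, (X ⟶ b) × (Z ⟶ b)), Function.Injective f → Nonempty T →
    ∃ asg : Ordinal.{0} → T, ∀ q : T, ∀ j : Ordinal.{0}, ∃ i, j ≤ i ∧ asg i = q

variable {D}

/-! ## Consequences of the black boxes in the form used below -/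

section JS

variable {n : ℕ} {p0 : Col (a n : D)} {h0 : Sm p0} {F A B : N (XX0 p0 h0)}

/-- JS for two Q-pieces over the same P-piece -/
theorem js_stage (hJ : JSStmt D) (P : Piece F A B) (Q Q' : QPiece (ιX p0 h0) P)
    (i i' : Ordinal.{0}) (h : Large P Q i) (h' : Large P Q' i') {W : CObj D} (e : Q.Bq ⟶ W)
    (e' : Q'.Bq ⟶ W) (hγ : Q.γ ≫ e = Q'.γ ≫ e') {f : D} (s t : f ⟶ P.Z'.x)
    (hst : s ≫ fg P Q i h ≫ e.u = t ≫ fg P Q' i' h' ≫ e'.u) (hs : ¬ Thru s P.α.u)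
    (ht : ¬ Thru t P.α.u) : i = i' :=
  hJ P.α.u h.2 h'.2 (PGclose Q.G i h.1) (PGclose Q'.G i' h'.1) Q.γ.u Q'.γ.u
    (tk P Q i h).hγ (tk P Q' i' h').hγ (tk P Q i h).inv (tk P Q' i' h').inv e.u e'.u
    (by have := congrArg CHom.u hγ; simpa using this) s t hst hs ht

/-- JS for one Q-piece -/
theorem js_same (hJ : JSStmt' D) (P : Piece F A B) (Q : QPiece (ιX p0 h0) P)
    (i : Ordinal.{0}) (h : Large P Q i) {W : CObj D} (e e' : Q.Bq ⟶ W)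
    (hγ : Q.γ ≫ e = Q.γ ≫ e') {f : D} (s t : f ⟶ P.Z'.x)
    (hst : s ≫ fg P Q i h ≫ e.u = t ≫ fg P Q i h ≫ e'.u) (hs : ¬ Thru s P.α.u)
    (ht : ¬ Thru t P.α.u) : s = t ∧ feq (mv (Q.e ≫ e) P.y) (mv (Q.e ≫ e') P.y) := by
  have hγ' : Q.γ.u ≫ e.u = Q.γ.u ≫ e'.u := by
    have := congrArg CHom.u hγ; simpa using this
  obtain ⟨h1, d, x, y, ⟨_, _, e'', g, hg⟩, hxy⟩ : s = t ∧ ∃ (d : D) (x y : d ⟶ Q.Bq.x),
      (PGclose Q.G i h.1).rel x y ∧ x ≫ e.u = y ≫ e'.u :=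
    hJ (tk P Q i h) e.u e'.u hγ' s t hst hs ht
  refine ⟨h1, ((Q.perf e e').2 ⟨_, g ≫ x, g ≫ y, hg, ?_⟩).2⟩
  rw [Category.assoc, Category.assoc, hxy]

end JS

/-- Lemma C for forced equality: a conservative extension does not force new equalities. -/
theorem feq_of_cons (hA : AmalgStmt D) {W W' : CObj D} (f : W ⟶ W') (hf : Cons f) (σ τ : N W)
    (h : feq (mv f σ) (mv f τ)) : feq σ τ := by
  refine feq_loc fun {Y} k => ?_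
  obtain ⟨V, j₁, j₂, hj, -, -⟩ := hA f k (by
    intro z c c' hc hc'
    have h1 : Col.pull f.u W'.p = W.p := hf
    rw [h1] at hc
    have h2 := CHom.le k z c hc
    rw [h2] at hc'
    exact Option.some.inj hc')
  refine ⟨V, j₂, ?_⟩
  have := feq_mv j₁ h
  rwa [mv_mv, mv_mv, hj] at this

end

end Vale.Agent.P323.P11
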