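import Vale.Agent.P323.P11.BB

/-!
# Section 11: statements of the parts (only `def ... : Prop`)
-/

namespace Vale.Agent.P323.P11

open CategoryTheory Vale.Agent.P323.Z NameTheory TwBase

set_option linter.unusedSectionVars false

noncomputable section

variable (D : Type 1) [Category.{1} D] [Tw D] [NameTheory (CObj D)]

/-- S11-a. Two morphisms out of `Z'` with the same `x'`, `P` nonsingular: they have a common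
point `(s, t)` which is not below `α`. -/
def StmtA : Prop := ∀ {X0 : CObj D} {F A B : N X0}, FFun F A B → ∀ (P : Piece F A B),
  NonSing P.u P.y → ∀ {W : CObj D} (e₁ e₂ : P.Z' ⟶ W), feq (mv e₁ P.x') (mv e₂ P.x') →
    ∃ (d : D) (s t : d ⟶ P.Z'.x), s ≫ e₁.u = t ≫ e₂.u ∧ ¬ Thru s P.α.u ∧ ¬ Thru t P.α.u

/-- S11-b. The maximal disjoint family of P-pieces. -/
def StmtB : Prop := ∀ {X0 : CObj D} {F A B : N X0}, FFun F A B → FOnto F B →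
  ∃ S : Set (Piece F A B),
    (∀ P ∈ S, ∀ P' ∈ S, ∀ {W : CObj D} (e : P.Z ⟶ W) (e' : P'.Z ⟶ W),
      P.u ≫ e = P'.u ≫ e' → feq (mv e P.y) (mv e' P'.y) → P = P') ∧
    ∀ {W : CObj D} (v : X0 ⟶ W) (σ : N W), fmem σ (mv v B) →
      ∃ (W' : CObj D) (w : W ⟶ W') (P : Piece F A B) (_ : P ∈ S) (e : P.Z ⟶ W'),
        P.u ≫ e = v ≫ w ∧ feq (mv w σ) (mv e P.y)

/-- S11-c. The maximal disjoint family of Q-pieces over a P-piece. -/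
def StmtC : Prop := ∀ {X0 X1 : CObj D} (ιX : X0 ⟶ X1) {F A B : N X0} (P : Piece F A B),
  ∃ T : Set (QPiece ιX P),
    (∀ Q ∈ T, ∀ Q' ∈ T, ∀ {W : CObj D} (e : Q.Bq ⟶ W) (e' : Q'.Bq ⟶ W),
      Q.γ ≫ e = Q'.γ ≫ e' → feq (mv (Q.e ≫ e) P.y) (mv (Q'.e ≫ e') P.y) → Q = Q') ∧
    ∀ {W : CObj D} (v : X1 ⟶ W) (e₀ : P.Z ⟶ W), P.u ≫ e₀ = ιX ≫ v →
      ∃ (W' : CObj D) (w : W ⟶ W') (Q : QPiece ιX P) (_ : Q ∈ T) (e : Q.Bq ⟶ W'),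
        Q.γ ≫ e = v ≫ w ∧ feq (mv (e₀ ≫ w) P.y) (mv (Q.e ≫ e) P.y)

/-- S11-c'. The stages. -/
def StmtC' : Prop := ∀ {n : ℕ} {p0 : Col (a n : D)} {h0 : Sm p0} {F A B : N (XX0 p0 h0)}
  (P : Piece F A B) (T : Set (QPiece (ιX p0 h0) P)),
    (∀ Q ∈ T, ∀ Q' ∈ T, ∀ {W : CObj D} (e : Q.Bq ⟶ W) (e' : Q'.Bq ⟶ W),
      Q.γ ≫ e = Q'.γ ≫ e' → feq (mv (Q.e ≫ e) P.y) (mv (Q'.e ≫ e') P.y) → Q = Q') →
    ∃ I : QPiece (ιX p0 h0) P → Set Ordinal.{0},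
      (∀ (Q Q' : QPiece (ιX p0 h0) P) (i : Ordinal.{0}), i ∈ I Q → i ∈ I Q' → Q = Q') ∧
      (∀ (Q : QPiece (ιX p0 h0) P) (i : Ordinal.{0}), i ∈ I Q → Large P Q i) ∧
      ∀ Q ∈ T, ∀ j : Ordinal.{0}, ∃ i ∈ I Q, j ≤ i

/-- S11-c''. Every condition has an extension of the form `(a 1, p)`. -/
def StmtX : Prop := ∀ X : CObj D, ∃ (p0 : Col (a 1 : D)) (h0 : Sm p0),
  Nonempty (X ⟶ XX0 p0 h0)

/-- S11-e. `J` is functional. -/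
def StmtE : Prop := ∀ {n : ℕ} {p0 : Col (a n : D)} {h0 : Sm p0} {F A B : N (XX0 p0 h0)}
  (St : Setup F A B) {W : CObj D} (m m' : JIdx St) (e : m.O ⟶ W) (e' : m'.O ⟶ W),
    m.v ≫ e = m'.v ≫ e' → feq (mv e m.y) (mv e' m'.y) → feq (mv e m.x) (mv e' m'.x)

/-- S11-f. `J` is injective. -/
def StmtF : Prop := ∀ {n : ℕ} {p0 : Col (a n : D)} {h0 : Sm p0} {F A B : N (XX0 p0 h0)},
  FFun F A B → ∀ (St : Setup F A B) {W : CObj D} (m m' : JIdx St) (e : m.O ⟶ W)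
    (e' : m'.O ⟶ W), m.v ≫ e = m'.v ≫ e' → feq (mv e m.x) (mv e' m'.x) →
      feq (mv e m.y) (mv e' m'.y)

/-- S11-g. `J` is total. `v₁ : X1 ⟶ W`. -/
def StmtG : Prop := ∀ {n : ℕ} {p0 : Col (a n : D)} {h0 : Sm p0} {F A B : N (XX0 p0 h0)}
  (St : Setup F A B) {W : CObj D} (v₁ : XX1 p0 h0 ⟶ W) (σ : N W),
    fmem σ (mv (ιX p0 h0 ≫ v₁) B) →
      ∃ (W' : CObj D) (w : W ⟶ W') (m : JIdx St) (e : m.O ⟶ W'),
        m.v ≫ e = v₁ ≫ w ∧ feq (mv w σ) (mv e m.y)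

/-- S11-g'. The heart of totality: `e` is a morphism `(b_Q, r_Q) ⟶ W`; some extension of `W`
carries an index over `e`. -/
def StmtG' : Prop := ∀ {n : ℕ} {p0 : Col (a n : D)} {h0 : Sm p0} {F A B : N (XX0 p0 h0)}
  (St : Setup F A B) (P : Piece F A B) (_ : P ∈ St.S) (Q : QPiece (ιX p0 h0) P)
    (_ : Q ∈ St.T P) {W : CObj D} (e : Q.Bq ⟶ W),
      ∃ (W' : CObj D) (w : W ⟶ W') (m : JIdx St) (e' : m.O ⟶ W'),
        m.v ≫ e' = Q.γ ≫ e ≫ w ∧ feq (mv (Q.e ≫ e ≫ w) P.y) (mv e' m.y)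

end

end Vale.Agent.P323.P11
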