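import Vale.Agent.P323.Z9.BBGlue
import Vale.Agent.P323.P11.Stmts

/-!
# Section 11, part a: nonsingular separation
-/

namespace Vale.Agent.P323.P11

open CategoryTheory Vale.Agent.P323.Z NameTheory TwBase

variable {D : Type 1} [Category.{1} D] [Tw D] [NameTheory (CObj D)]

theorem sepAux {X0 : CObj D} {F A B : N X0} (hF : FFun F A B) (P : Piece F A B)
    (hns : NonSing P.u P.y) {W : CObj D} (e₁ e₂ : P.Z' ⟶ W)
    (he : feq (mv e₁ P.x') (mv e₂ P.x')) {d : D} {s t : d ⟶ P.Z'.x}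
    (hpb : IsPB s t e₁.u e₂.u) : ¬ Thru s P.α.u := by
  rintro ⟨h, hh⟩
  have hr' : Sm (Col.pull e₁.u W.p) := Col9.sm_pull e₁.u W.sm
  obtain ⟨V, g₁, g₂, hg₁, hg₂, hu, hne⟩ := hns (Col.pull P.k.u (Col.pull e₁.u W.p))
    (by
      have h1 : Col.pull P.k.u P.Z'.p = P.Z.p := P.cons
      rw [← h1]
      exact (cle e₁).pull P.k.u) (Col9.sm_pull P.k.u hr')
  apply hne
  let R : CObj D := ⟨P.Z'.x, Col.pull e₁.u W.p, hr'⟩
  let ρ : P.Z' ⟶ R := CHom.mk (𝟙 P.Z'.x) (by rw [Col.pull_id]; exact cle e₁)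
  obtain ⟨i, hk, hi⟩ := mem_two P.k.u g₁.u
  have hle1 : Col.Le (Col.pull P.k.u R.p) (Col.pull g₁.u V.p) := hg₁
  obtain ⟨V₁, a, b, hV₁, -, -, hb⟩ := exists_cam (Y := R) (Z := V) (l := P.k.u) (r := g₁.u) i hk hi
    (Col9.compat_of_le hle1 (Col.Le.refl _))
  replace hb := hb hle1
  have hle2 : Col.Le (Col.pull P.k.u R.p) (Col.pull (g₂ ≫ b).u V₁.p) := by
    rw [comp_u, Col.pull_comp, show Col.pull b.u V₁.p = V.p from hb]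
    exact hg₂
  obtain ⟨j, hk', hj⟩ := mem_two P.k.u (g₂ ≫ b).u
  obtain ⟨V₂, a', b', hV₂, -, -, hb'⟩ := exists_cam (Y := R) (Z := V₁) (l := P.k.u)
    (r := (g₂ ≫ b).u) j hk' hj (Col9.compat_of_le hle2 (Col.Le.refl _))
  replace hb' := hb' hle2
  let f₁ : P.Z' ⟶ V₂ := ρ ≫ a ≫ b'
  let f₂ : P.Z' ⟶ V₂ := ρ ≫ a'
  have hkf₁ : P.k ≫ f₁ = (g₁ ≫ b) ≫ b' := by
    apply chom_ext
    change P.k.u ≫ 𝟙 P.Z'.x ≫ a.u ≫ b'.u = (g₁.u ≫ b.u) ≫ b'.u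
    rw [Category.id_comp, ← Category.assoc]
    congr 1
    exact hV₁.pb.1
  have hkf₂ : P.k ≫ f₂ = (g₂ ≫ b) ≫ b' := by
    apply chom_ext
    change P.k.u ≫ 𝟙 P.Z'.x ≫ a'.u = (g₂ ≫ b).u ≫ b'.u
    rw [Category.id_comp]
    exact hV₂.pb.1
  have hα : P.α ≫ f₁ = P.α ≫ f₂ := by
    rw [Piece.α, Category.assoc, Category.assoc, hkf₁, hkf₂, ← Category.assoc, ← Category.assoc,
      ← Category.assoc, ← Category.assoc, hu]
  have hf₁ : Col.Le (Col.pull e₁.u W.p) (Col.pull f₁.u V₂.p) := by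
    change Col.Le (Col.pull e₁.u W.p) (Col.pull (𝟙 P.Z'.x ≫ a.u ≫ b'.u) V₂.p)
    rw [Category.id_comp]
    exact cle (a ≫ b')
  have hf₂ : Col.Le (Col.pull e₁.u W.p) (Col.pull f₂.u V₂.p) := by
    change Col.Le (Col.pull e₁.u W.p) (Col.pull (𝟙 P.Z'.x ≫ a'.u) V₂.p)
    rw [Category.id_comp]
    exact cle a'
  have hx : feq (mv f₁ P.x') (mv f₂ P.x') := by
    refine step1Stmt P.x' e₁ e₂ he s t hpb f₁ f₂ hf₁ hf₂ ?_
    have hα' : P.α.u ≫ f₁.u = P.α.u ≫ f₂.u := congrArg CHom.u hα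
    rw [← hh, Category.assoc, Category.assoc, hα']
  have h1 := fmem_mv f₁ P.F_mem
  have h2 := fmem_mv f₂ P.F_mem
  rw [mv_mv] at h1 h2
  have h1' : fmem (op (mv f₁ P.x') (mv f₁ (mv P.k P.y))) (mv (P.α ≫ f₁) F) :=
    fmem_congr (op_mv _ _ _) (feq_refl _) h1
  have h2' : fmem (op (mv f₁ P.x') (mv f₂ (mv P.k P.y))) (mv (P.α ≫ f₁) F) := by
    rw [hα]
    refine fmem_congr (feq_trans (op_mv _ _ _) ?_) (feq_refl _) h2
    exact op_feq.2 ⟨feq_symm hx, feq_refl _⟩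
  have h3 := hF.func _ _ _ _ h1' h2'
  rw [mv_mv, mv_mv, hkf₁, hkf₂] at h3
  have h4 : (seqFeq P.y).rel (g₁ ≫ b) (g₂ ≫ b) := SEq.lemmaC (E := seqFeq P.y) b' hb' h3
  exact SEq.lemmaC (E := seqFeq P.y) b hb h4

theorem stmtA : StmtA D := by
  intro X0 F A B hF P hns W e₁ e₂ he
  obtain ⟨i, h1, h2⟩ := mem_two e₁.u e₂.u
  obtain ⟨d, s, t, -, -, hpb⟩ := pb h1 h2
  exact ⟨d, s, t, hpb.1, sepAux hF P hns e₁ e₂ he hpb,
    sepAux hF P hns e₂ e₁ (feq_symm he) hpb.symm⟩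

end Vale.Agent.P323.P11
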