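import Vale.Agent.P323.P11.Stmts
import Vale.Agent.P323.Z9.EE

/-!
# Section 11, part b: the maximal disjoint family of P-pieces and the covering property
-/

namespace Vale.Agent.P323.P11

open CategoryTheory Vale.Agent.P323.Z NameTheory TwBase

variable {D : Type 1} [Category.{1} D] [Tw D] [NameTheory (CObj D)]

namespace B733

/-- an element of a moved name is densely an entry -/
theorem mem_ent' {X : CObj D} {τ : N X} {W : CObj D} (v : X ⟶ W) {σ : N W}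
    (h : fmem σ (mv v τ)) : ∃ (Y : CObj D) (k : W ⟶ Y) (e : Ent (mv (v ≫ k) τ)),
      feq (mv k σ) (ent (mv (v ≫ k) τ) e) := by
  obtain ⟨Y, k, e, he⟩ := mem_ent h
  have key : ∀ τ', mv k (mv v τ) = τ' → ∃ e : Ent τ', feq (mv k σ) (ent τ' e) := by
    rintro _ rfl
    exact ⟨e, he⟩
  obtain ⟨e', he'⟩ := key _ (mv_mv v k τ)
  exact ⟨Y, k, e', he'⟩

/-- the entry may be taken for any equal structure map -/
theorem ent_cast {X Y : CObj D} {τ : N X} {σ : N Y} {u u' : X ⟶ Y} (h : u = u')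
    (he : ∃ e : Ent (mv u τ), feq σ (ent (mv u τ) e)) :
    ∃ e : Ent (mv u' τ), feq σ (ent (mv u' τ) e) := by
  subst h
  exact he

/-- Every `(v, σ)` with `σ` in `B` is densely of the form `(P.u, P.y)`, `P` a P-piece. -/
theorem exists_piece {X0 : CObj D} {F A B : N X0} (hF : FFun F A B) (hO : FOnto F B)
    {W : CObj D} (v : X0 ⟶ W) (σ : N W) (hσ : fmem σ (mv v B)) :
    ∃ (P : Piece F A B) (w : W ⟶ P.Z), P.u = v ≫ w ∧ feq (mv w σ) P.y := by
  classical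
  obtain ⟨W₁, k₁, ey, hey⟩ := mem_ent' v hσ
  -- decide whether `u` decides `y`
  obtain ⟨r, hr, hsm, hst⟩ : ∃ r : Col W₁.x, Col.Le W₁.p r ∧ Sm r ∧
      ((∀ (V : CObj D) (e₁ e₂ : W₁ ⟶ V), Col.Le r (Col.pull e₁.u V.p) →
          Col.Le r (Col.pull e₂.u V.p) → (v ≫ k₁) ≫ e₁ = (v ≫ k₁) ≫ e₂ →
            feq (mv e₁ (ent _ ey)) (mv e₂ (ent _ ey))) ∨
        ∀ r', Col.Le r r' → Sm r' → ∃ (V : CObj D) (e₁ e₂ : W₁ ⟶ V),
          Col.Le r' (Col.pull e₁.u V.p) ∧ Col.Le r' (Col.pull e₂.u V.p) ∧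
            (v ≫ k₁) ≫ e₁ = (v ≫ k₁) ≫ e₂ ∧
              ¬ feq (mv e₁ (ent _ ey)) (mv e₂ (ent _ ey))) := by
    by_cases h : ∃ r : Col W₁.x, Col.Le W₁.p r ∧ Sm r ∧
        (∀ (V : CObj D) (e₁ e₂ : W₁ ⟶ V), Col.Le r (Col.pull e₁.u V.p) →
          Col.Le r (Col.pull e₂.u V.p) → (v ≫ k₁) ≫ e₁ = (v ≫ k₁) ≫ e₂ →
            feq (mv e₁ (ent _ ey)) (mv e₂ (ent _ ey)))
    · obtain ⟨r, hr, hsm, h⟩ := h
      exact ⟨r, hr, hsm, Or.inl h⟩
    · push Not at h
      exact ⟨W₁.p, Col.Le.refl _, W₁.sm, Or.inr h⟩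
  let Z₀ : CObj D := recol W₁ r hsm
  let h₀ : W₁ ⟶ Z₀ := toRecol W₁ r hsm hr
  have hB : fmem (mv h₀ (ent _ ey)) (mv ((v ≫ k₁) ≫ h₀) B) := by
    have := fmem_mv h₀ (ent_mem _ ey)
    rwa [mv_mv] at this
  obtain ⟨W₂, k₂, x, hx⟩ := hO ((v ≫ k₁) ≫ h₀) _ hB
  obtain ⟨W₃, k₃, x', y', hx', -, hxy⟩ := hF.sub _ _ hx
  have hxx' : feq (mv k₃ x) x' := (op_feq.1 (feq_trans (feq_symm (op_mv _ _ _)) hxy)).1
  have hxA : fmem (mv k₃ x) (mv ((((v ≫ k₁) ≫ h₀) ≫ k₂) ≫ k₃) A) :=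
    fmem_congr (feq_symm hxx') (feq_refl _) hx'
  obtain ⟨W₄, k₄, hex⟩ := mem_ent' _ hxA
  let k : Z₀ ⟶ W₄ := k₂ ≫ k₃ ≫ k₄
  have hsmZ : Sm (Col.pull k.u W₄.p) := Col9.sm_pull k.u W₄.sm
  have hrk : Col.Le r (Col.pull k.u W₄.p) := CHom.le k
  let Z : CObj D := ⟨W₁.x, Col.pull k.u W₄.p, hsmZ⟩
  let h₁ : W₁ ⟶ Z := CHom.mk (𝟙 W₁.x) (by rw [Col.pull_id]; exact hr.trans hrk)
  let k' : Z ⟶ W₄ := CHom.mk k.u (Col.Le.refl _)
  have hk' : h₁ ≫ k' = h₀ ≫ k := rfl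
  have hu : (((((v ≫ k₁) ≫ h₀) ≫ k₂) ≫ k₃) ≫ k₄) = (v ≫ k₁) ≫ h₁ ≫ k' := by
    rw [hk']
    simp only [k, Category.assoc]
  obtain ⟨ex, hex'⟩ := ent_cast hu hex
  let P : Piece F A B :=
    { Y₀ := W₁
      u₀ := v ≫ k₁
      ey := ey
      Z := Z
      h₀ := h₁
      Y₁ := W₄
      u₁ := (v ≫ k₁) ≫ h₁ ≫ k'
      ex := ex
      Z' := W₄
      h₁ := 𝟙 W₄
      k := k'
      comm := Category.comp_id _
      cons := rfl
      hF := by
        rw [mv_id, Category.comp_id]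
        have h1 := fmem_mv (k₃ ≫ k₄) hx
        rw [mv_mv, mv_mv] at h1
        have e1 : (((v ≫ k₁) ≫ h₀) ≫ k₂) ≫ k₃ ≫ k₄ = (v ≫ k₁) ≫ h₁ ≫ k' := by
          rw [hk']
          simp only [k, Category.assoc]
        have e2 : h₀ ≫ k₂ ≫ k₃ ≫ k₄ = h₁ ≫ k' := by rw [hk']
        rw [e1] at h1
        refine fmem_congr ?_ (feq_refl _) h1
        refine feq_trans (op_mv _ _ _) (op_feq.2 ⟨?_, ?_⟩)
        · rwa [mv_mv] at hex'
        · rw [mv_mv, ← e2]
          simp only [Category.assoc]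
          exact feq_refl _
      status := by
        rcases hst with hst | hst
        · left
          intro V e₁ e₂ he
          rw [mv_mv, mv_mv]
          refine hst V _ _ ?_ ?_ ?_
          · change Col.Le r (Col.pull (𝟙 W₁.x ≫ e₁.u) V.p)
            rw [Category.id_comp]
            exact hrk.trans (cle e₁)
          · change Col.Le r (Col.pull (𝟙 W₁.x ≫ e₂.u) V.p)
            rw [Category.id_comp]
            exact hrk.trans (cle e₂)
          · simpa only [Category.assoc] using he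
        · right
          intro r' hr' hsm'
          obtain ⟨V, e₁, e₂, he₁, he₂, he, hne⟩ := hst r' (hrk.trans hr') hsm'
          refine ⟨V, CHom.mk e₁.u (hr'.trans he₁), CHom.mk e₂.u (hr'.trans he₂), he₁, he₂, ?_, ?_⟩
          · apply chom_ext
            have := congrArg CHom.u he
            change ((v ≫ k₁).u ≫ 𝟙 W₁.x) ≫ e₁.u = ((v ≫ k₁).u ≫ 𝟙 W₁.x) ≫ e₂.u
            rw [Category.comp_id]
            exact this
          · rw [mv_mv, mv_mv]
            have q1 : (h₁ ≫ (CHom.mk e₁.u (hr'.trans he₁) : Z ⟶ V)) = e₁ :=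
              chom_ext (Category.id_comp _)
            have q2 : (h₁ ≫ (CHom.mk e₂.u (hr'.trans he₂) : Z ⟶ V)) = e₂ :=
              chom_ext (Category.id_comp _)
            rw [q1, q2]
            exact hne }
  refine ⟨P, k₁ ≫ h₁, ?_, ?_⟩
  · change (v ≫ k₁) ≫ h₁ = v ≫ k₁ ≫ h₁
    rw [Category.assoc]
  · change feq (mv (k₁ ≫ h₁) σ) (mv h₁ (ent _ ey))
    have := feq_mv h₁ hey
    rwa [mv_mv] at this

/-- disjointness of P-pieces -/
def Dj {X0 : CObj D} {F A B : N X0} (P P' : Piece F A B) : Prop :=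
  ∀ {W : CObj D} (e : P.Z ⟶ W) (e' : P'.Z ⟶ W), P.u ≫ e = P'.u ≫ e' →
    ¬ feq (mv e P.y) (mv e' P'.y)

omit [Tw D] in
theorem Dj.symm {X0 : CObj D} {F A B : N X0} {P P' : Piece F A B} (h : Dj P P') : Dj P' P :=
  fun e e' he hf => h e' e he.symm (feq_symm hf)

end B733

open B733 in
theorem stmtB : StmtB D := by
  classical
  intro X0 F A B hF hO
  obtain ⟨S, hS⟩ := zorn_subset {S : Set (Piece F A B) | S.Pairwise Dj} (by
    intro c hc hchain
    refine ⟨⋃₀ c, ?_, fun s hs => Set.subset_sUnion_of_mem hs⟩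
    rintro P ⟨s, hs, hP⟩ P' ⟨s', hs', hP'⟩ hne
    rcases hchain.total hs hs' with h | h
    · exact hc hs' (h hP) hP' hne
    · exact hc hs hP (h hP') hne)
  refine ⟨S, ?_, ?_⟩
  · intro P hP P' hP' W e e' he hf
    by_contra hne
    exact hS.prop hP hP' hne e e' he hf
  · intro W v σ hσ
    obtain ⟨P, w, hu, hy⟩ := exists_piece hF hO v σ hσ
    by_cases hP : P ∈ S
    · exact ⟨P.Z, w, P, hP, 𝟙 P.Z, by rw [Category.comp_id, hu], by rw [mv_id]; exact hy⟩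
    · have hmax : ¬ (insert P S).Pairwise Dj := by
        intro h
        exact hP (hS.le_of_ge h (Set.subset_insert P S) (Set.mem_insert P S))
      have : ∃ P' ∈ S, ¬ Dj P P' := by
        by_contra hc
        apply hmax
        refine Set.Pairwise.insert hS.prop ?_
        intro P' hP' _
        have h1 : Dj P P' := by
          by_contra h
          exact hc ⟨P', hP', h⟩
        exact ⟨h1, Dj.symm h1⟩
      obtain ⟨P', hP', hnd⟩ := this
      simp only [Dj, not_forall, not_not] at hnd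
      obtain ⟨W', e, e', he, hf⟩ := hnd
      refine ⟨W', w ≫ e, P', hP', e', ?_, ?_⟩
      · rw [← he, hu, Category.assoc]
      · refine feq_trans ?_ hf
        have := feq_mv e hy
        rwa [mv_mv] at this

end Vale.Agent.P323.P11
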