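import Vale.Agent.P323.P11.BB
import Vale.Agent.P323.H70.Size

/-!
# Cardinality: objects and morphisms of `CObj D` are enumerated by the small ordinals
-/

namespace Vale.Agent.P323.P11

open CategoryTheory Vale.Agent.P323.Z TwBase Cardinal

set_option linter.unusedSectionVars false

variable {D : Type 1} [Category.{1} D]

theorem mk_mor_le [TwBase D] : #(Σ x y : D, (x ⟶ y)) ≤ #(Ordinal.{0}) := by
  classical
  choose birth hb using fun f : (Σ x y : D, (x ⟶ y)) => mem_ex f.2.2
  refine _root_.P323.H70.mk_le_of_birth birth fun i => ?_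
  have hs := TwBase.small (D := D) i
  refine small_of_injective (β := {f : Σ x y : D, (x ⟶ y) // Mem i f.2.2})
    (f := fun f => ⟨f.1, ?_⟩) ?_
  · have := hb f.1
    rwa [f.2] at this
  · intro f g h
    have h' := congrArg Subtype.val h
    exact Subtype.ext h'

theorem mk_obj_le [TwBase D] : #D ≤ #(Ordinal.{0}) := by
  refine (Cardinal.mk_le_of_injective (f := fun x : D => (⟨x, x, 𝟙 x⟩ : Σ x y : D, (x ⟶ y)))
    ?_).trans mk_mor_le
  intro x y h
  exact congrArg (fun t : (Σ x y : D, (x ⟶ y)) => t.1) h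

theorem mk_hom_le [TwBase D] (x y : D) : #(x ⟶ y) ≤ #(Ordinal.{0}) := by
  refine (Cardinal.mk_le_of_injective (f := fun f : (x ⟶ y) => (⟨x, y, f⟩ : Σ x y : D, (x ⟶ y)))
    ?_).trans mk_mor_le
  intro f g h
  simpa using h

theorem mk_dn_le [TwBase D] (x : D) : #(Dn x) ≤ #(Ordinal.{0}) :=
  _root_.P323.H70.mk_sigma_le mk_obj_le fun z => mk_hom_le z x

/-- colourings with small domain -/
abbrev SCol (x : D) : Type 1 :=
  {p : Dn x → Option (ULift.{1} Bool) // Small.{0} {z | p z ≠ none}}

theorem mk_scol_le [TwBase D] (x : D) : #(SCol x) ≤ #(Ordinal.{0}) := by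
  refine _root_.P323.H70.mk_small_partial_le (mk_dn_le x) ?_
  have : Small.{0} (ULift.{1} Bool) := small_of_injective ULift.down_injective
  exact _root_.P323.H70.mk_le_of_small _

theorem map_up_inj : Function.Injective (Option.map (ULift.up.{1} (α := Bool))) :=
  Option.map_injective ULift.up_injective

theorem mk_cobj_le [TwBase D] : #(CObj D) ≤ #(Ordinal.{0}) := by
  refine (Cardinal.mk_le_of_injective (f := fun X : CObj D =>
    (⟨X.x, ⟨fun z => (X.p z).map ULift.up, ?_⟩⟩ : Σ x : D, SCol x)) ?_).trans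
    (_root_.P323.H70.mk_sigma_le mk_obj_le fun x => mk_scol_le x)
  · have hs := X.sm
    refine small_of_injective (β := {z // X.p z ≠ none})
      (f := fun z => ⟨z.1, fun h => z.2 ?_⟩) ?_
    · change Option.map ULift.up (X.p z.1) = none
      rw [h]
      rfl
    · intro z z' h
      have h' := congrArg Subtype.val h
      exact Subtype.ext h'
  · rintro ⟨x, p, sm⟩ ⟨x', p', sm'⟩ h
    obtain ⟨rfl, h⟩ := Sigma.mk.inj_iff.1 h
    have h' := congrArg Subtype.val (eq_of_heq h)
    have : p = p' := by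
      funext z
      exact map_up_inj (congrFun h' z)
    subst this
    rfl

theorem mk_chom_le [TwBase D] (X Y : CObj D) : #(X ⟶ Y) ≤ #(Ordinal.{0}) := by
  refine (Cardinal.mk_le_of_injective (f := fun f : (X ⟶ Y) => f.u) ?_).trans
    (mk_hom_le X.x Y.x)
  intro f g h
  exact chom_ext h

theorem cardStmt [Tw D] [NameTheory (CObj D)] : CardStmt D := by
  intro T X Z f hf hne
  refine _root_.P323.H70.exists_asg ?_
  refine (Cardinal.mk_le_of_injective hf).trans ?_
  exact _root_.P323.H70.mk_sigma_le mk_cobj_le fun b =>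
    _root_.P323.H70.mk_prod_le (mk_chom_le X b) (mk_chom_le Z b)

end Vale.Agent.P323.P11
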