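import Vale.Agent.P323.P11.Stmts

/-!
# S11-e: `J` is functional
-/

namespace Vale.Agent.P323.P11

open CategoryTheory Vale.Agent.P323.Z NameTheory TwBase

set_option linter.unusedSectionVars false

variable {D : Type 1} [Category.{1} D] [Tw D] [NameTheory (CObj D)]

section

variable {n : ℕ} {p0 : Col (a n : D)} {h0 : Sm p0} {F A B : N (XX0 p0 h0)}

theorem mv_y {St : Setup F A B} (m : JIdx St) {W : CObj D} (e : m.O ⟶ W) :
    mv e m.y = mv (m.eZ ≫ e) m.P.y := by
  rw [JIdx.y, mv_mv]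

theorem mv_x {St : Setup F A B} (m : JIdx St) {W : CObj D} (e : m.O ⟶ W) :
    mv e m.x = mv (m.f ≫ e) m.P.x' := by
  rw [JIdx.x, mv_mv]

/-- Two indices with a common extension and equal first coordinates have the same P-piece. -/
theorem same_P {St : Setup F A B} {W : CObj D} (m m' : JIdx St) (e : m.O ⟶ W) (e' : m'.O ⟶ W)
    (hv : m.v ≫ e = m'.v ≫ e') (hy : feq (mv e m.y) (mv e' m'.y)) : m.P = m'.P := by
  refine St.S_disj m.P m.hP m'.P m'.hP (m.eZ ≫ e) (m'.eZ ≫ e') ?_ ?_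
  · rw [← Category.assoc, m.u_eZ, Category.assoc, hv, ← Category.assoc, ← m'.u_eZ,
      Category.assoc]
  · rw [← mv_y, ← mv_y]; exact hy

theorem least_aux {St : Setup F A B} {P : Piece F A B} {Q : QPiece (ιX p0 h0) P} {W : CObj D}
    (E E' : Q.Bq ⟶ W) (i i' : Ordinal.{0}) (hi : i ∈ St.I P Q) (r r' : Col Q.Bq.x)
    (hr : Col.Le r (Col.pull E.u W.p)) (hr' : Col.Le r' (Col.pull E'.u W.p))
    (hc : fg P Q i (St.I_large P Q i hi) ≫ E.u = fg P Q i (St.I_large P Q i hi) ≫ E'.u)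
    (good : Col.Le P.Z'.p (Col.pull (fg P Q i (St.I_large P Q i hi)) r))
    (least : ∀ i'' < i', ∀ hi' : i'' ∈ St.I P Q,
      ¬ Col.Compat (Col.pull (fg P Q i'' (St.I_large P Q i'' hi')) r') P.Z'.p) : ¬ i < i' := by
  intro hlt
  refine least i hlt hi ?_
  intro z c c' hz hz'
  have h1 := hr' _ _ hz
  have h2 := hr _ _ (good z c' hz')
  have h3 : Col.pull E'.u W.p (Dn.post (fg P Q i (St.I_large P Q i hi)) z) =
      Col.pull E.u W.p (Dn.post (fg P Q i (St.I_large P Q i hi)) z) := by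
    change W.p (Dn.post E'.u (Dn.post _ z)) = W.p (Dn.post E.u (Dn.post _ z))
    rw [← Dn.post_comp, ← Dn.post_comp, hc]
  rw [h3, h2] at h1
  exact (Option.some.inj h1).symm

/-- `J` is functional. -/
theorem stmtE_aux {St : Setup F A B} {W : CObj D} (m m' : JIdx St) (e : m.O ⟶ W)
    (e' : m'.O ⟶ W) (hv : m.v ≫ e = m'.v ≫ e') (hy : feq (mv e m.y) (mv e' m'.y)) :
    feq (mv e m.x) (mv e' m'.x) := by
  have hP := same_P m m' e e' hv hy
  obtain ⟨P, hP1, Q, hQ, i, hi, r, le, sm, good, least⟩ := m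
  obtain ⟨P', hP1', Q', hQ', i', hi', r', le', sm', good', least'⟩ := m'
  obtain rfl : P = P' := hP
  have hQQ : Q = Q' := by
    refine St.T_disj P Q hQ Q' hQ' (toRecol Q.Bq r sm le ≫ e) (toRecol Q'.Bq r' sm' le' ≫ e')
      ?_ ?_
    · rw [← Category.assoc, ← Category.assoc]; exact hv
    · rw [← Category.assoc, ← Category.assoc]
      rw [mv_y, mv_y] at hy
      exact hy
  obtain rfl : Q = Q' := hQQ
  have hγ : Q.γ ≫ toRecol Q.Bq r sm le ≫ e = Q.γ ≫ toRecol Q.Bq r' sm' le' ≫ e' := by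
    rw [← Category.assoc, ← Category.assoc]; exact hv
  have hyy : feq (mv (Q.e ≫ toRecol Q.Bq r sm le ≫ e) P.y)
      (mv (Q.e ≫ toRecol Q.Bq r' sm' le' ≫ e') P.y) := by
    rw [← Category.assoc, ← Category.assoc]
    rw [mv_y, mv_y] at hy
    exact hy
  have hcong := fun (j : Ordinal.{0}) (h : Large P Q j) =>
    fg_congr P Q (toRecol Q.Bq r sm le ≫ e) (toRecol Q.Bq r' sm' le' ≫ e') hγ hyy j h
  have hE : (toRecol Q.Bq r sm le ≫ e).u = e.u := by
    rw [comp_u, toRecol_u, Category.id_comp]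
  have hE' : (toRecol Q.Bq r' sm' le' ≫ e').u = e'.u := by
    rw [comp_u, toRecol_u, Category.id_comp]
  have hr : Col.Le r (Col.pull (toRecol Q.Bq r sm le ≫ e).u W.p) := by
    rw [hE]; exact CHom.le e
  have hr' : Col.Le r' (Col.pull (toRecol Q.Bq r' sm' le' ≫ e').u W.p) := by
    rw [hE']; exact CHom.le e'
  have hii : i = i' := by
    refine le_antisymm (not_lt.1 ?_) (not_lt.1 ?_)
    · exact least_aux _ _ i' i hi' r' r hr' hr (hcong i' _).symm good' least
    · exact least_aux _ _ i i' hi r r' hr hr' (hcong i _) good least'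
  obtain rfl : i = i' := hii
  have hfe : (JIdx.f (⟨P, hP1, Q, hQ, i, hi, r, le, sm, good, least⟩ : JIdx St)) ≫ e =
      (JIdx.f (⟨P, hP1', Q, hQ', i, hi', r', le', sm', good', least'⟩ : JIdx St)) ≫ e' := by
    apply chom_ext
    have := hcong i (St.I_large P Q i hi)
    rw [hE, hE'] at this
    exact this
  rw [mv_x, mv_x]
  change feq (mv (JIdx.f _ ≫ e) P.x') (mv (JIdx.f _ ≫ e') P.x')
  rw [hfe]
  exact feq_refl _

end

theorem stmtE : StmtE D := fun _ _ m m' e e' hv hy => stmtE_aux m m' e e' hv hy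

end Vale.Agent.P323.P11
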