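import Vale.Agent.P323.P11.E

/-!
# S11-f: `J` is injective
-/

namespace Vale.Agent.P323.P11

open CategoryTheory Vale.Agent.P323.Z NameTheory TwBase

set_option linter.unusedSectionVars false

variable {D : Type 1} [Category.{1} D] [Tw D] [NameTheory (CObj D)]

section

variable {n : ℕ} {p0 : Col (a n : D)} {h0 : Sm p0} {F A B : N (XX0 p0 h0)}

/-- the pair `(x, y)` of an index is in `F` -/
theorem f_mem {St : Setup F A B} (m : JIdx St) {W : CObj D} (e : m.O ⟶ W) :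
    fmem (op (mv e m.x) (mv (m.P.k ≫ m.f ≫ e) m.P.y)) (mv (ιX p0 h0 ≫ m.v ≫ e) F) := by
  have h := fmem_mv (m.f ≫ e) m.P.F_mem
  rw [mv_mv, ← Category.assoc, m.α_f, Category.assoc] at h
  refine fmem_congr ?_ (feq_refl _) h
  refine feq_trans (op_mv _ _ _) ?_
  rw [mv_mv, mv_x]
  exact feq_refl _

theorem u_k_f {St : Setup F A B} (m : JIdx St) {W : CObj D} (e : m.O ⟶ W) :
    m.P.u ≫ m.P.k ≫ m.f ≫ e = ιX p0 h0 ≫ m.v ≫ e := by
  rw [← Category.assoc, ← Category.assoc, ← Category.assoc]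
  congr 1
  exact m.α_f

theorem u_eZ_e {St : Setup F A B} (m : JIdx St) {W : CObj D} (e : m.O ⟶ W) :
    m.P.u ≫ m.eZ ≫ e = ιX p0 h0 ≫ m.v ≫ e := by
  rw [← Category.assoc, m.u_eZ, Category.assoc]

theorem same_P' (hF : FFun F A B) {St : Setup F A B} {W : CObj D} (m m' : JIdx St) (e : m.O ⟶ W)
    (e' : m'.O ⟶ W) (hv : m.v ≫ e = m'.v ≫ e') (hx : feq (mv e m.x) (mv e' m'.x)) :
    m.P = m'.P := by
  have h1 := f_mem m e
  have h2 := f_mem m' e'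
  rw [← hv] at h2
  have h3 : fmem (op (mv e m.x) (mv (m'.P.k ≫ m'.f ≫ e') m'.P.y))
      (mv (ιX p0 h0 ≫ m.v ≫ e) F) :=
    fmem_congr (op_feq.2 ⟨feq_symm hx, feq_refl _⟩) (feq_refl _) h2
  have h4 := hF.func _ _ _ _ h1 h3
  refine St.S_disj m.P m.hP m'.P m'.hP (m.P.k ≫ m.f ≫ e) (m'.P.k ≫ m'.f ≫ e') ?_ h4
  rw [u_k_f, u_k_f, hv]

/-- `J` is injective. -/
theorem stmtF_aux (hJ : JSStmt D) (hJ' : JSStmt' D) (hA : StmtA D) (hF : FFun F A B)
    {St : Setup F A B} {W : CObj D} (m m' : JIdx St) (e : m.O ⟶ W)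
    (e' : m'.O ⟶ W) (hv : m.v ≫ e = m'.v ≫ e') (hx : feq (mv e m.x) (mv e' m'.x)) :
    feq (mv e m.y) (mv e' m'.y) := by
  have hP := same_P' hF m m' e e' hv hx
  have hu : m.P.u ≫ m.eZ ≫ e = ιX p0 h0 ≫ m.v ≫ e := u_eZ_e m e
  have hu' : m'.P.u ≫ m'.eZ ≫ e' = ιX p0 h0 ≫ m.v ≫ e := by rw [hv]; exact u_eZ_e m' e'
  rw [mv_y, mv_y]
  rw [mv_x, mv_x] at hx
  obtain ⟨P, hP1, Q, hQ, i, hi, r, le, sm, good, least⟩ := m
  obtain ⟨P', hP1', Q', hQ', i', hi', r', le', sm', good', least'⟩ := m'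
  obtain rfl : P = P' := hP
  rcases P.sing_or with hs | hn
  · exact hs _ _ (hu.trans hu'.symm)
  · obtain ⟨d, s, t, hst, hs, ht⟩ := hA hF P hn _ _ hx
    have hγ : Q.γ ≫ toRecol Q.Bq r sm le ≫ e = Q'.γ ≫ toRecol Q'.Bq r' sm' le' ≫ e' := by
      rw [← Category.assoc, ← Category.assoc]; exact hv
    have hE : (toRecol Q.Bq r sm le ≫ e).u = e.u := by
      rw [comp_u, toRecol_u, Category.id_comp]
    have hE' : (toRecol Q'.Bq r' sm' le' ≫ e').u = e'.u := by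
      rw [comp_u, toRecol_u, Category.id_comp]
    have hst' : s ≫ fg P Q i (St.I_large P Q i hi) ≫ (toRecol Q.Bq r sm le ≫ e).u =
        t ≫ fg P Q' i' (St.I_large P Q' i' hi') ≫ (toRecol Q'.Bq r' sm' le' ≫ e').u := by
      rw [hE, hE']; exact hst
    obtain rfl : i = i' := js_stage hJ P Q Q' i i' _ _ _ _ hγ s t hst' hs ht
    obtain rfl : Q = Q' := St.I_disj P Q Q' i hi hi'
    have := (js_same hJ' P Q i _ _ _ hγ s t hst' hs ht).2
    rw [← Category.assoc, ← Category.assoc] at this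
    exact this

end

theorem stmtF (hJ : JSStmt D) (hJ' : JSStmt' D) (hA : StmtA D) : StmtF D :=
  fun hF _ _ m m' e e' hv hx => stmtF_aux hJ hJ' hA hF m m' e e' hv hx

end Vale.Agent.P323.P11
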