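import Vale.Agent.P323.Z.Color
import Vale.Agent.P323.Z.NameTheory

/-!
# Section 11, definitions: pieces over `X0 = (a n, p0)`, pieces over `X1 = (a (n+1), ι_* p0)`
-/

namespace Vale.Agent.P323.P11

open CategoryTheory Vale.Agent.P323.Z NameTheory TwBase

set_option linter.unusedSectionVars false

noncomputable section

variable {D : Type 1} [Category.{1} D]

/-! ## Recolouring -/

/-- the domain of a colouring is small -/
abbrev Sm {x : D} (p : Col x) : Prop := Small.{0} {z // p z ≠ none}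

/-- the object `Z` with another colouring -/
@[reducible] def recol (Z : CObj D) (r : Col Z.x) (sm : Sm r) : CObj D := ⟨Z.x, r, sm⟩

/-- the identity of `Z.x` as a morphism to the recoloured object -/
def toRecol (Z : CObj D) (r : Col Z.x) (sm : Sm r) (le : Col.Le Z.p r) : Z ⟶ recol Z r sm :=
  CHom.mk (𝟙 Z.x) (by rw [Col.pull_id]; exact le)

@[simp] theorem toRecol_u (Z : CObj D) (r : Col Z.x) (sm : Sm r) (le : Col.Le Z.p r) :
    (toRecol Z r sm le).u = 𝟙 Z.x := rfl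

/-- a morphism out of `Z` as a morphism out of the recoloured object -/
def fromRecol {Z W : CObj D} (r : Col Z.x) (sm : Sm r) (f : Z ⟶ W)
    (h : Col.Le r (Col.pull f.u W.p)) : recol Z r sm ⟶ W := CHom.mk f.u h

@[simp] theorem fromRecol_u {Z W : CObj D} (r : Col Z.x) (sm : Sm r) (f : Z ⟶ W)
    (h : Col.Le r (Col.pull f.u W.p)) : (fromRecol r sm f h).u = f.u := rfl

theorem toRecol_fromRecol {Z W : CObj D} (r : Col Z.x) (sm : Sm r) (le : Col.Le Z.p r) (f : Z ⟶ W)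
    (h : Col.Le r (Col.pull f.u W.p)) : toRecol Z r sm le ≫ fromRecol r sm f h = f := by
  apply chom_ext
  rw [comp_u, toRecol_u, fromRecol_u, Category.id_comp]

/-! ## Closing up a pseudogroup in a later stage -/

/-- the upward closure of the pseudogroup `G` in stage `j` -/
def PGclose [TwBase D] {i : Ordinal.{0}} {b : D} (G : PG D i b) (j : Ordinal.{0}) (hij : i ≤ j) :
    PG D j b where
  rel {d} s t := Mem j s ∧ Mem j t ∧ ∃ (e : D) (g : e ⟶ d), G.rel (g ≫ s) (g ≫ t)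
  mem h := ⟨h.1, h.2.1⟩
  one := ⟨mem_mono hij (G.mem G.one).1, mem_mono hij (G.mem G.one).1, b, 𝟙 b, by
    simpa using G.one⟩
  symm h := ⟨h.2.1, h.1, by
    obtain ⟨e, g, hg⟩ := h.2.2
    exact ⟨e, g, G.symm hg⟩⟩
  comp := by
    rintro d d' e s t s' t' g g' ⟨hs, ht, e₁, h, hh⟩ ⟨hs', ht', e₂, h', hh'⟩ hpb hg hg'
    refine ⟨mem_comp hg hs, mem_comp hg' ht', ?_⟩
    obtain ⟨z, p, q, hp, hq, hpq⟩ := pb (G.mem hh).2 (G.mem hh').1
    have h1 := G.comp hh hh' hpq hp hq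
    have h2 : (p ≫ h) ≫ t = (q ≫ h') ≫ s' := by simpa using hpq.1
    obtain ⟨w, hw1, hw2⟩ := hpb.2 _ _ h2
    refine ⟨z, w, ?_⟩
    have e1 : w ≫ g ≫ s = p ≫ h ≫ s := by rw [← Category.assoc, hw1, Category.assoc]
    have e2 : w ≫ g' ≫ t' = q ≫ h' ≫ t' := by rw [← Category.assoc, hw2, Category.assoc]
    rw [e1, e2]
    exact h1
  up := by
    rintro d e s t g hs ht hg ⟨_, _, e', h, hh⟩
    refine ⟨hs, ht, e', h ≫ g, ?_⟩
    simpa using hh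

theorem PGclose_rel [TwBase D] {i : Ordinal.{0}} {b : D} (G : PG D i b) (j : Ordinal.{0})
    (hij : i ≤ j) {d : D} {s t : d ⟶ b} :
    (PGclose G j hij).rel s t ↔ Mem j s ∧ Mem j t ∧ ∃ (e : D) (g : e ⟶ d), G.rel (g ≫ s) (g ≫ t) :=
  Iff.rfl

/-- a push-forward has small domain -/
theorem sm_push [TwBase D] {x y : D} (f : x ⟶ y) {p : Col x} (h : Sm p) : Sm (Col.push f p) := by
  have key : ∀ w : {w // Col.push f p w ≠ none}, ∃ z : {z // p z ≠ none}, Dn.post f z.1 = w.1 := by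
    rintro ⟨w, hw⟩
    obtain ⟨c, hc⟩ := Option.ne_none_iff_exists'.1 hw
    obtain ⟨z, hz, hz'⟩ := (Col.push_eq_some f p w c).1 hc
    exact ⟨⟨z, by rw [hz']; simp⟩, hz⟩
  choose g hg using key
  exact small_of_injective (f := g) (fun w w' h => Subtype.ext (by rw [← hg w, ← hg w', h]))

/-! ## Pieces -/

variable [Tw D] [NameTheory (CObj D)]

/-- `u` decides `y`: two morphisms out of `Z` which agree on `u` give equal `y`. -/
def Sing {X Z : CObj D} (u : X ⟶ Z) (y : N Z) : Prop :=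
  ∀ {W : CObj D} (e₁ e₂ : Z ⟶ W), u ≫ e₁ = u ≫ e₂ → feq (mv e₁ y) (mv e₂ y)

/-- no larger colouring of `Z` makes `u` decide `y`. -/
def NonSing {X Z : CObj D} (u : X ⟶ Z) (y : N Z) : Prop :=
  ∀ r : Col Z.x, Col.Le Z.p r → Sm r → ∃ (W : CObj D) (e₁ e₂ : Z ⟶ W),
    Col.Le r (Col.pull e₁.u W.p) ∧ Col.Le r (Col.pull e₂.u W.p) ∧ u ≫ e₁ = u ≫ e₂ ∧
      ¬ feq (mv e₁ y) (mv e₂ y)

/-- A P-piece over `X0` (`F : A ->> B`). Everything lives in `Type 1`: the names are entries. -/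
structure Piece {X0 : CObj D} (F A B : N X0) : Type 1 where
  Y₀ : CObj D
  u₀ : X0 ⟶ Y₀
  ey : Ent (mv u₀ B)
  Z : CObj D
  h₀ : Y₀ ⟶ Z
  Y₁ : CObj D
  u₁ : X0 ⟶ Y₁
  ex : Ent (mv u₁ A)
  Z' : CObj D
  h₁ : Y₁ ⟶ Z'
  k : Z ⟶ Z'
  comm : u₁ ≫ h₁ = u₀ ≫ h₀ ≫ k
  cons : Cons k
  hF : fmem (op (mv h₁ (ent _ ex)) (mv (h₀ ≫ k) (ent _ ey))) (mv (u₁ ≫ h₁) F)
  status : Sing (u₀ ≫ h₀) (mv h₀ (ent _ ey)) ∨ NonSing (u₀ ≫ h₀) (mv h₀ (ent _ ey))

namespace Piece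

variable {X0 : CObj D} {F A B : N X0}

/-- the structure map `X0 ⟶ Z` -/
def u (P : Piece F A B) : X0 ⟶ P.Z := P.u₀ ≫ P.h₀

/-- the element `y` of `B` -/
def y (P : Piece F A B) : N P.Z := mv P.h₀ (ent _ P.ey)

/-- the element `x'` of `A` -/
def x' (P : Piece F A B) : N P.Z' := mv P.h₁ (ent _ P.ex)

/-- the structure map `X0 ⟶ Z'`; `α'` of the paper proof -/
def α (P : Piece F A B) : X0 ⟶ P.Z' := P.u ≫ P.k

theorem α_eq (P : Piece F A B) : P.α = P.u₁ ≫ P.h₁ := by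
  rw [α, u, Category.assoc, P.comm]

theorem y_mem (P : Piece F A B) : fmem P.y (mv P.u B) := by
  have := fmem_mv P.h₀ (ent_mem _ P.ey)
  rwa [mv_mv] at this

theorem x'_mem (P : Piece F A B) : fmem P.x' (mv P.α A) := by
  have := fmem_mv P.h₁ (ent_mem _ P.ex)
  rwa [mv_mv, ← P.α_eq] at this

theorem F_mem (P : Piece F A B) : fmem (op P.x' (mv P.k P.y)) (mv P.α F) := by
  have := P.hF
  rw [← P.α_eq, ← mv_mv] at this
  exact this

theorem sing_or (P : Piece F A B) : Sing P.u P.y ∨ NonSing P.u P.y := P.status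

end Piece

/-- A Q-piece over the P-piece `P`, relative to `ιX : X0 ⟶ X1`. `Bq` is the coloured object
`(b, r)` with `r` perfect; `G` is the pseudogroup of Theorem 9. -/
structure QPiece {X0 X1 : CObj D} (ιX : X0 ⟶ X1) {F A B : N X0} (P : Piece F A B) : Type 1 where
  Bq : CObj D
  γ : X1 ⟶ Bq
  e : P.Z ⟶ Bq
  comm : P.u ≫ e = ιX ≫ γ
  i : Ordinal.{0}
  G : PG D i Bq.x
  hγ : Mem i γ.u
  inv : ∀ {d : D} {s t : d ⟶ Bq.x}, G.rel s t → ∃ v : X1.x ⟶ d, v ≫ s = γ.u ∧ v ≫ t = γ.u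
  perf : ∀ {W : CObj D} (e₁ e₂ : Bq ⟶ W),
    (γ ≫ e₁ = γ ≫ e₂ ∧ feq (mv (e ≫ e₁) P.y) (mv (e ≫ e₂) P.y)) ↔
      ∃ (d : D) (s t : d ⟶ Bq.x), G.rel s t ∧ s ≫ e₁.u = t ≫ e₂.u

/-- the condition `X0 = (a n, p0)` -/
@[reducible] def XX0 {n : ℕ} (p0 : Col (a n : D)) (h0 : Sm p0) : CObj D := ⟨a n, p0, h0⟩

/-- the condition `X1 = (a (n+1), ι_* p0)` -/
@[reducible] def XX1 {n : ℕ} (p0 : Col (a n : D)) (h0 : Sm p0) : CObj D :=
  ⟨a (n + 1), Col.push (ι n) p0, sm_push _ h0⟩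

/-- the morphism `X0 ⟶ X1` given by `ι n` -/
def ιX {n : ℕ} (p0 : Col (a n : D)) (h0 : Sm p0) : XX0 p0 h0 ⟶ XX1 p0 h0 :=
  CHom.mk (ι n) (fun z c hz => by
    change Col.push (ι n) p0 (Dn.post (ι n) z) = some c
    rw [Col.push_post]; exact hz)

@[simp] theorem ιX_u {n : ℕ} (p0 : Col (a n : D)) (h0 : Sm p0) : (ιX p0 h0).u = ι n := rfl

section Tasks

variable {n : ℕ} {p0 : Col (a n : D)} {h0 : Sm p0} {F A B : N (XX0 p0 h0)}

/-- `i` is large enough for the task of `(P, Q)` -/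
def Large (P : Piece F A B) (Q : QPiece (ιX p0 h0) P) (i : Ordinal.{0}) : Prop :=
  Q.i ≤ i ∧ Mem i (x := a n) (y := P.Z'.x) P.α.u

/-- the task of `(P, Q)` at the stage `i` -/
def tk (P : Piece F A B) (Q : QPiece (ιX p0 h0) P) (i : Ordinal.{0}) (h : Large P Q i) :
    Task D i where
  n := n
  c := P.Z'.x
  α := P.α.u
  b := Q.Bq.x
  E := PGclose Q.G i h.1
  γ := Q.γ.u
  hα := h.2
  hγ := mem_mono h.1 Q.hγ
  inv := by
    rintro d s t ⟨_, _, e, g, hg⟩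
    obtain ⟨v, hv1, hv2⟩ := Q.inv hg
    exact ⟨v ≫ g, by simpa using hv1, by simpa using hv2⟩

/-- the generator of `(P, Q)` at the stage `i` -/
def fg (P : Piece F A B) (Q : QPiece (ιX p0 h0) P) (i : Ordinal.{0}) (h : Large P Q i) :
    P.Z'.x ⟶ Q.Bq.x := Tw.gen (tk P Q i h)

theorem fg_α (P : Piece F A B) (Q : QPiece (ιX p0 h0) P) (i : Ordinal.{0}) (h : Large P Q i) :
    P.α.u ≫ fg P Q i h = (ιX p0 h0 ≫ Q.γ).u := Tw.gen_α (tk P Q i h)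

/-- Two morphisms which agree on `γ` and on the first coordinate agree on all generators. -/
theorem fg_congr (P : Piece F A B) (Q : QPiece (ιX p0 h0) P) {W : CObj D} (e₁ e₂ : Q.Bq ⟶ W)
    (hγ : Q.γ ≫ e₁ = Q.γ ≫ e₂) (hy : feq (mv (Q.e ≫ e₁) P.y) (mv (Q.e ≫ e₂) P.y))
    (i : Ordinal.{0}) (h : Large P Q i) : fg P Q i h ≫ e₁.u = fg P Q i h ≫ e₂.u := by
  obtain ⟨d, s, t, hst, he⟩ := (Q.perf e₁ e₂).1 ⟨hγ, hy⟩
  have hcl : (PGclose Q.G i h.1).rel s t :=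
    ⟨mem_mono h.1 (Q.G.mem hst).1, mem_mono h.1 (Q.G.mem hst).2, d, 𝟙 d, by simpa using hst⟩
  obtain ⟨v, hv1, hv2⟩ := Tw.gen_inv (tk P Q i h) hcl
  change v ≫ s = fg P Q i h at hv1
  change v ≫ t = fg P Q i h at hv2
  have h1 : v ≫ s ≫ e₁.u = v ≫ t ≫ e₂.u := by rw [he]
  rw [← Category.assoc, ← Category.assoc, hv1, hv2] at h1
  exact h1

end Tasks

/-! ## The choice of the families -/

/-- All choices made in the construction of `J`. -/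
structure Setup {n : ℕ} {p0 : Col (a n : D)} {h0 : Sm p0} (F A B : N (XX0 p0 h0)) where
  /-- the P-pieces -/
  S : Set (Piece F A B)
  S_disj : ∀ P ∈ S, ∀ P' ∈ S, ∀ {W : CObj D} (e : P.Z ⟶ W) (e' : P'.Z ⟶ W),
    P.u ≫ e = P'.u ≫ e' → feq (mv e P.y) (mv e' P'.y) → P = P'
  S_cover : ∀ {W : CObj D} (v : XX0 p0 h0 ⟶ W) (σ : N W), fmem σ (mv v B) →
    ∃ (W' : CObj D) (w : W ⟶ W') (P : Piece F A B) (_ : P ∈ S) (e : P.Z ⟶ W'),
      P.u ≫ e = v ≫ w ∧ feq (mv w σ) (mv e P.y)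
  /-- the Q-pieces over a P-piece -/
  T : ∀ P : Piece F A B, Set (QPiece (ιX p0 h0) P)
  T_disj : ∀ P, ∀ Q ∈ T P, ∀ Q' ∈ T P, ∀ {W : CObj D} (e : Q.Bq ⟶ W) (e' : Q'.Bq ⟶ W),
    Q.γ ≫ e = Q'.γ ≫ e' → feq (mv (Q.e ≫ e) P.y) (mv (Q'.e ≫ e') P.y) → Q = Q'
  T_cover : ∀ (P : Piece F A B) {W : CObj D} (v : XX1 p0 h0 ⟶ W) (e₀ : P.Z ⟶ W),
    P.u ≫ e₀ = ιX p0 h0 ≫ v →
    ∃ (W' : CObj D) (w : W ⟶ W') (Q : QPiece (ιX p0 h0) P) (_ : Q ∈ T P) (e : Q.Bq ⟶ W'),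
      Q.γ ≫ e = v ≫ w ∧ feq (mv (e₀ ≫ w) P.y) (mv (Q.e ≫ e) P.y)
  /-- the stages used for `(P, Q)` -/
  I : ∀ (P : Piece F A B), QPiece (ιX p0 h0) P → Set Ordinal.{0}
  I_disj : ∀ (P : Piece F A B) (Q Q' : QPiece (ιX p0 h0) P) (i : Ordinal.{0}),
    i ∈ I P Q → i ∈ I P Q' → Q = Q'
  I_large : ∀ (P : Piece F A B) (Q : QPiece (ιX p0 h0) P) (i : Ordinal.{0}), i ∈ I P Q →
    Large P Q i
  I_unb : ∀ (P : Piece F A B) (Q : QPiece (ιX p0 h0) P), Q ∈ T P →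
    ∀ j : Ordinal.{0}, ∃ i ∈ I P Q, j ≤ i

section J

variable {n : ℕ} {p0 : Col (a n : D)} {h0 : Sm p0} {F A B : N (XX0 p0 h0)}

/-- Index type of the name `J`. -/
structure JIdx (St : Setup F A B) : Type 1 where
  P : Piece F A B
  hP : P ∈ St.S
  Q : QPiece (ιX p0 h0) P
  hQ : Q ∈ St.T P
  i : Ordinal.{0}
  hi : i ∈ St.I P Q
  r : Col Q.Bq.x
  le : Col.Le Q.Bq.p r
  sm : Sm r
  good : Col.Le P.Z'.p (Col.pull (fg P Q i (St.I_large P Q i hi)) r)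
  least : ∀ i' < i, ∀ hi' : i' ∈ St.I P Q,
    ¬ Col.Compat (Col.pull (fg P Q i' (St.I_large P Q i' hi')) r) P.Z'.p

namespace JIdx

variable {St : Setup F A B} (m : JIdx St)

/-- the object `B' = (b_Q, r'')` -/
@[reducible] def O : CObj D := recol m.Q.Bq m.r m.sm

/-- the extension `X1 ⟶ B'` -/
def v : XX1 p0 h0 ⟶ m.O := m.Q.γ ≫ toRecol m.Q.Bq m.r m.sm m.le

/-- `Z_P ⟶ B'` -/
def eZ : m.P.Z ⟶ m.O := m.Q.e ≫ toRecol m.Q.Bq m.r m.sm m.le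

/-- the generator `f_i : Z'_P ⟶ B'` as a morphism of coloured objects -/
def f : m.P.Z' ⟶ m.O := CHom.mk (fg m.P m.Q m.i (St.I_large _ _ _ m.hi)) m.good

@[simp] theorem f_u : m.f.u = fg m.P m.Q m.i (St.I_large _ _ _ m.hi) := rfl

/-- the first coordinate, an element of `B` -/
def y : N m.O := mv m.eZ m.P.y

/-- the second coordinate, an element of `A` -/
def x : N m.O := mv m.f m.P.x'

theorem α_f : m.P.α ≫ m.f = ιX p0 h0 ≫ m.v := by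
  apply chom_ext
  rw [comp_u, f_u, fg_α, comp_u, comp_u, v, comp_u, toRecol_u, Category.comp_id]

theorem u_eZ : m.P.u ≫ m.eZ = ιX p0 h0 ≫ m.v := by
  rw [eZ, v, ← Category.assoc, m.Q.comm, Category.assoc]

end JIdx

/-- The name `J` over `X1`: entries `(v : X1 ⟶ B', (y, x))`. -/
def J (St : Setup F A B) : N (XX1 p0 h0) :=
  mkN (XX1 p0 h0) (I := JIdx St) (fun m => m.O) (fun m => m.v) (fun m => op m.y m.x)

end J

end

end Vale.Agent.P323.P11
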