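import Vale.Agent.P323.P11.Stmts

/-!
# S11-c'': every condition has an extension of the form `(a 1, p)`
-/

namespace Vale.Agent.P323.P11

open CategoryTheory Vale.Agent.P323.Z NameTheory TwBase

set_option linter.unusedSectionVars false

variable {D : Type 1} [Category.{1} D]

/-- the smallest pseudogroup on `b` -/
def trivPG [TwBase D] {i : Ordinal.{0}} {b : D} (hb : Mem i (𝟙 b)) : PG D i b where
  rel {d} s t := s = t ∧ Mem i s ∧ ∃ g : b ⟶ d, g ≫ s = 𝟙 b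
  mem := by rintro d s t ⟨rfl, h, -⟩; exact ⟨h, h⟩
  one := ⟨rfl, hb, 𝟙 b, Category.id_comp _⟩
  symm := by rintro d s t ⟨rfl, h, h'⟩; exact ⟨rfl, h, h'⟩
  comp := by
    rintro d d' e s t s' t' g g' ⟨rfl, hs, σ, hσ⟩ ⟨rfl, hs', σ', hσ'⟩ hpb hg hg'
    obtain ⟨w, hw, -⟩ := hpb.2 σ σ' (by rw [hσ, hσ'])
    refine ⟨hpb.1, mem_comp hg hs, w, ?_⟩
    rw [← Category.assoc, hw, hσ]
  up := by
    rintro d e s t g hs ht hg ⟨h, -, σ, hσ⟩
    have h1 : (σ ≫ g) ≫ s = 𝟙 b := by rw [Category.assoc, hσ]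
    have h2 : (σ ≫ g) ≫ t = 𝟙 b := by rw [Category.assoc, ← h, hσ]
    refine ⟨?_, hs, σ ≫ g, h1⟩
    have hm := TwBase.mono s
    have h3 : s ≫ (σ ≫ g) = 𝟙 d := by
      rw [← cancel_mono s, Category.assoc, h1, Category.comp_id, Category.id_comp]
    calc s = s ≫ ((σ ≫ g) ≫ t) := by rw [h2, Category.comp_id]
      _ = (s ≫ (σ ≫ g)) ≫ t := by simp only [Category.assoc]
      _ = t := by rw [h3, Category.id_comp]

theorem exists_to_a1 [Tw D] (x : D) : Nonempty (x ⟶ (a 1 : D)) := by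
  obtain ⟨α⟩ := from_a0 x
  obtain ⟨i, hi⟩ := mem_ex α
  have h1 : Mem i (𝟙 (a 1 : D)) :=
    mem_mono (zero_le (a := i)) (mem_tgt (ι_mem (D := D) 0))
  let τ : Task D i :=
    { n := 0, c := x, α := α, b := a 1, E := trivPG h1, γ := 𝟙 _, hα := hi, hγ := h1
      inv := by
        rintro d s t ⟨rfl, -, σ, hσ⟩
        exact ⟨σ, hσ, hσ⟩ }
  exact ⟨Tw.gen τ⟩

theorem stmtX [Tw D] [NameTheory (CObj D)] : StmtX D := by
  intro X
  obtain ⟨f⟩ := exists_to_a1 X.x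
  refine ⟨Col.push f X.p, sm_push f X.sm, ⟨CHom.mk f ?_⟩⟩
  intro z c hz
  change Col.push f X.p (Dn.post f z) = some c
  rw [Col.push_post]
  exact hz

end Vale.Agent.P323.P11
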