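import Vale.Agent.P323.P11.Names
import Vale.Agent.P323.P11.X
import Vale.Agent.P323.P11.Card
import Vale.Agent.P323.P11.A733
import Vale.Agent.P323.P11.B733
import Vale.Agent.P323.H309.PartC
import Vale.Agent.P323.H21.BB
import Vale.Agent.P323.H728.Final9

/-!
# Section 11, final theorem: the partition principle is forced over the coloured category
-/

namespace Vale.Agent.P323.P11

open CategoryTheory Vale.Agent.P323.Z NameTheory

theorem ppForced (D : Type 1) [Category.{1} D] [Tw D] [NameTheory (CObj D)] :
    PPForced (CObj D) :=
  ppForced_of (jsStmt D) (jsStmt' D) stmtA stmtB (H309.stmtC thm9Stmt)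
    (H309.stmtC' cardStmt) stmtX

end Vale.Agent.P323.P11
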