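import Vale.Agent.P323.P11.F
import Vale.Agent.P323.H309.Total

/-!
# Section 11: the name `J` is an injective function
-/

namespace Vale.Agent.P323.P11

open CategoryTheory Vale.Agent.P323.Z NameTheory TwBase

set_option linter.unusedSectionVars false

variable {D : Type 1} [Category.{1} D] [Tw D] [NameTheory (CObj D)]

section

variable {n : ℕ} {p0 : Col (a n : D)} {h0 : Sm p0} {F A B : N (XX0 p0 h0)}

theorem JIdx.y_mem {St : Setup F A B} (m : JIdx St) : fmem m.y (mv (ιX p0 h0 ≫ m.v) B) := by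
  have h := fmem_mv m.eZ m.P.y_mem
  rwa [mv_mv, m.u_eZ] at h

theorem JIdx.x_mem {St : Setup F A B} (m : JIdx St) : fmem m.x (mv (ιX p0 h0 ≫ m.v) A) := by
  have h := fmem_mv m.f m.P.x'_mem
  rwa [mv_mv, m.α_f] at h

/-- membership in `J`, unfolded, with the pair split into coordinates -/
theorem J_elim (St : Setup F A B) {W : CObj D} (v : XX1 p0 h0 ⟶ W) (y x : N W)
    (h : fmem (op y x) (mv v (J St))) {Y : CObj D} (k : W ⟶ Y) :
    ∃ (Z : CObj D) (l : Y ⟶ Z) (m : JIdx St) (w : m.O ⟶ Z), v ≫ k ≫ l = m.v ≫ w ∧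
      feq (mv (k ≫ l) y) (mv w m.y) ∧ feq (mv (k ≫ l) x) (mv w m.x) := by
  rw [J, fmem_mkN] at h
  obtain ⟨Z, l, m, w, hv, hf⟩ := h k
  have h1 := feq_trans (feq_symm (op_mv (k ≫ l) y x)) (feq_trans hf (op_mv w m.y m.x))
  exact ⟨Z, l, m, w, hv, (op_feq.1 h1).1, (op_feq.1 h1).2⟩

/-- two memberships in `J` at a common extension -/
theorem J_elim₂ (St : Setup F A B) {W : CObj D} (v : XX1 p0 h0 ⟶ W) (y x y' x' : N W)
    (h : fmem (op y x) (mv v (J St))) (h' : fmem (op y' x') (mv v (J St))) {Y : CObj D}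
    (k : W ⟶ Y) :
    ∃ (Z : CObj D) (l : Y ⟶ Z) (m m' : JIdx St) (w : m.O ⟶ Z) (w' : m'.O ⟶ Z),
      m.v ≫ w = m'.v ≫ w' ∧
      feq (mv (k ≫ l) y) (mv w m.y) ∧ feq (mv (k ≫ l) x) (mv w m.x) ∧
      feq (mv (k ≫ l) y') (mv w' m'.y) ∧ feq (mv (k ≫ l) x') (mv w' m'.x) := by
  obtain ⟨Z₁, l₁, m, w, hv, hy, hx⟩ := J_elim St v y x h k
  obtain ⟨Z, l₂, m', w', hv', hy', hx'⟩ := J_elim St v y' x' h' (k ≫ l₁)
  refine ⟨Z, l₁ ≫ l₂, m, m', w ≫ l₂, w', ?_, ?_, ?_, ?_, ?_⟩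
  · rw [← Category.assoc, ← hv, ← hv']
    simp only [Category.assoc]
  · have := feq_mv l₂ hy
    rw [mv_mv, mv_mv] at this
    rwa [← Category.assoc]
  · have := feq_mv l₂ hx
    rw [mv_mv, mv_mv] at this
    rwa [← Category.assoc]
  · rwa [← Category.assoc]
  · rwa [← Category.assoc]

theorem J_func (St : Setup F A B) {W : CObj D} (v : XX1 p0 h0 ⟶ W) (y x x' : N W)
    (h : fmem (op y x) (mv v (J St))) (h' : fmem (op y x') (mv v (J St))) : feq x x' := by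
  refine feq_loc fun {Y} k => ?_
  obtain ⟨Z, l, m, m', w, w', hv, h1, h2, h3, h4⟩ := J_elim₂ St v y x y x' h h' k
  refine ⟨Z, l, ?_⟩
  have := stmtE St m m' w w' hv (feq_trans (feq_symm h1) h3)
  exact feq_trans h2 (feq_trans this (feq_symm h4))

theorem J_inj (hJ : JSStmt D) (hJ' : JSStmt' D) (hA : StmtA D) (hF : FFun F A B)
    (St : Setup F A B) : FInj (J St) := by
  intro W v y y' x h h'
  refine feq_loc fun {Y} k => ?_
  obtain ⟨Z, l, m, m', w, w', hv, h1, h2, h3, h4⟩ := J_elim₂ St v y x y' x h h' k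
  refine ⟨Z, l, ?_⟩
  have := stmtF hJ hJ' hA hF St m m' w w' hv (feq_trans (feq_symm h2) h4)
  exact feq_trans h1 (feq_trans this (feq_symm h3))

theorem J_sub (St : Setup F A B) {W : CObj D} (v : XX1 p0 h0 ⟶ W) (p : N W)
    (hp : fmem p (mv v (J St))) :
    ∃ (W' : CObj D) (k : W ⟶ W') (y x : N W'), fmem y (mv (v ≫ k) (mv (ιX p0 h0) B)) ∧
      fmem x (mv (v ≫ k) (mv (ιX p0 h0) A)) ∧ feq (mv k p) (op y x) := by
  rw [J, fmem_mkN] at hp
  obtain ⟨Z, l, m, w, hv, hf⟩ := hp (𝟙 W)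
  rw [Category.id_comp] at hv hf
  refine ⟨Z, l, mv w m.y, mv w m.x, ?_, ?_, feq_trans hf (op_mv w m.y m.x)⟩
  · rw [hv, mv_mv]
    have := fmem_mv w m.y_mem
    rwa [mv_mv, Category.assoc] at this
  · rw [hv, mv_mv]
    have := fmem_mv w m.x_mem
    rwa [mv_mv, Category.assoc] at this

theorem sep_of_js (hJ : JSStmt D) : H309.Sep F A B := by
  intro P Q i h i' h' w e d s t hst hs ht
  exact hJ P.α.u h.2 h'.2 (PGclose Q.G i h.1) (PGclose Q.G i' h'.1) Q.γ.u Q.γ.u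
    (tk P Q i h).hγ (tk P Q i' h').hγ (tk P Q i h).inv (tk P Q i' h').inv e e rfl s t hst hs ht

theorem J_ffun (hJ : JSStmt D) (St : Setup F A B) :
    FFun (J St) (mv (ιX p0 h0) B) (mv (ιX p0 h0) A) where
  sub := J_sub St
  func := J_func St
  total := H309.J_total St (sep_of_js hJ)

end

/-- Conditions as in the interface: the whole of section 11, from its parts. -/
theorem exists_setup (hB : StmtB D) (hC : StmtC D) (hC' : StmtC' D) {n : ℕ} {p0 : Col (a n : D)}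
    {h0 : Sm p0} {F A B : N (XX0 p0 h0)} (hF : FFun F A B) (hO : FOnto F B) :
    Nonempty (Setup F A B) := by
  obtain ⟨S, hS1, hS2⟩ := hB hF hO
  choose T hT1 hT2 using fun P : Piece F A B => hC (ιX p0 h0) P
  choose I hI1 hI2 hI3 using fun P : Piece F A B => hC' P (T P) (hT1 P)
  exact ⟨{ S := S, S_disj := hS1, S_cover := hS2, T := T, T_disj := hT1, T_cover := hT2, I := I
           I_disj := hI1, I_large := hI2, I_unb := hI3 }⟩

theorem ffun_mv {X Y : CObj D} (k : X ⟶ Y) {F A B : N X} (h : FFun F A B) :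
    FFun (mv k F) (mv k A) (mv k B) where
  sub := by
    intro W v p hp
    rw [mv_mv] at hp
    obtain ⟨W', l, x, y, hx, hy, he⟩ := h.sub _ p hp
    refine ⟨W', l, x, y, ?_, ?_, he⟩
    · rwa [mv_mv, ← Category.assoc]
    · rwa [mv_mv, ← Category.assoc]
  func := by
    intro W v x y y' h1 h2
    rw [mv_mv] at h1 h2
    exact h.func _ x y y' h1 h2
  total := by
    intro W v x hx
    rw [mv_mv] at hx
    obtain ⟨W', l, y, hy⟩ := h.total _ x hx
    refine ⟨W', l, y, ?_⟩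
    rwa [mv_mv, ← Category.assoc]

theorem fonto_mv {X Y : CObj D} (k : X ⟶ Y) {F B : N X} (h : FOnto F B) :
    FOnto (mv k F) (mv k B) := by
  intro W v y hy
  rw [mv_mv] at hy
  obtain ⟨W', l, x, hx⟩ := h _ y hy
  refine ⟨W', l, x, ?_⟩
  rwa [mv_mv, ← Category.assoc]

/-- PP is forced, from the parts of section 11. -/
theorem ppForced_of (hJ : JSStmt D) (hJ' : JSStmt' D) (hA : StmtA D) (hB : StmtB D)
    (hC : StmtC D) (hC' : StmtC' D) (hX : StmtX D) : PPForced (CObj D) := by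
  intro X F A B hF hO
  obtain ⟨p0, h0, ⟨k⟩⟩ := hX X
  have hF' := ffun_mv k hF
  have hO' : FOnto (mv k F) (mv k B) := fonto_mv k hO
  obtain ⟨St⟩ := exists_setup hB hC hC' hF' hO'
  refine ⟨XX1 p0 h0, k ≫ ιX p0 h0, J St, ?_, J_inj hJ hJ' hA hF' St⟩
  have := J_ffun hJ St
  rwa [mv_mv, mv_mv] at this

end Vale.Agent.P323.P11
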